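import Vale.Agent.P076.R2.H305.MPE

/-!
# The maximal estimate along a set of times gives continuity along its closure
-/

open MeasureTheory Complex FourierTransform Filter Topology Set
open scoped ENNReal NNReal

namespace Vale.Agent.P076.R2.H305

open Vale.Agent.P076 Vale.Agent.P076.H791

variable {n : ℕ}

/-- the pieces of `F`, with the maximal estimate along `T` -/
theorem posT_data {w : E n → ℝ≥0∞} (hw : Measurable w) (hw1 : ∀ η, 1 ≤ w η) {T : Set ℝ}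
    (h : MPE w T) (F : Lp ℂ 2 (volume : Measure (E n)))
    (hE : En w (fun η => (𝓕 F : Lp ℂ 2 (volume : Measure (E n))) η) < ⊤) :
    ∃ (P : ℕ → E n → ℂ) (δ : ℕ → ℝ), Pieces P δ ∧ (∀ i, Nice w (P i)) ∧
      (∀ᵐ η, HasSum (fun i => P i η) ((𝓕 F : Lp ℂ 2 (volume : Measure (E n))) η)) ∧
      (∀ᵐ x, HasSum (fun i => evo (P i) x 0 0) (F x)) ∧
      ∀ᵐ x, ContinuousOn (fun s => ∑' i, evo (P i) x s 0) (closure T) := by
  set G : E n → ℂ := fun η => (𝓕 F : Lp ℂ 2 (volume : Measure (E n))) η with hG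
  have hGm : Measurable G := (Lp.stronglyMeasurable _).measurable
  choose ηf hη0 hη using fun j : ℕ => h (j + 1) ((2 : ℝ)⁻¹ ^ j) (by positivity)
  obtain ⟨φ, hφ, hp⟩ := extraction_forall_of_eventually
    (P := fun j m => En w (G - cut G m) ≤ min (ηf j) (H791.th j ^ 2 * H791.th j)) (fun j => by
      have h0 := H791.th_pos j
      exact ENNReal.tendsto_nhds_zero.1 (tendsto_cut hw hGm hE) _
        (lt_min (hη0 j) (by positivity)))
  set D : ℕ → E n → ℂ := fun j => cut G (φ (j + 1)) - cut G (φ j) with hD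
  have hDn : ∀ j, Nice w (D j) := fun j => (nice_cut hGm hE _).sub hw (nice_cut hGm hE _)
  have hDE : ∀ j, En w (D j) ≤ min (ηf j) (H791.th j ^ 2 * H791.th j) := fun j =>
    (En_mono (norm_cut_sub_le (hφ (Nat.lt_succ_self j)).le)).trans (hp j)
  have hDE1 : ∀ j, En w (D j) ≤ ηf j := fun j => (hDE j).trans (min_le_left _ _)
  have hDE2 : ∀ j, En w (D j) ≤ H791.th j ^ 2 * H791.th j := fun j => (hDE j).trans (min_le_right _ _)
  set P : ℕ → E n → ℂ := fun i => Nat.rec (cut G (φ 0)) (fun j _ => D j) i with hP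
  have hP0 : P 0 = cut G (φ 0) := rfl
  have hPs : ∀ j, P (j + 1) = D j := fun j => rfl
  have hPn : ∀ i, Nice w (P i) := fun i => by
    cases i with
    | zero => exact nice_cut hGm hE _
    | succ j => exact hDn j
  have hPsum : ∀ m η, ∑ i ∈ Finset.range (m + 1), P i η = cut G (φ m) η := by
    intro m η
    induction m with
    | zero => simp [hP0]
    | succ m ih =>
      rw [Finset.sum_range_succ, ih, hPs]
      simp only [hD, Pi.sub_apply]
      ring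
  set δ : ℕ → ℝ := fun i => Nat.rec (√(∫ η, ‖cut G (φ 0) η‖ ^ 2) + 1) (fun j _ => (2 : ℝ)⁻¹ ^ j) i
    with hδ
  have hδs : ∀ j, δ (j + 1) = (2 : ℝ)⁻¹ ^ j := fun j => rfl
  have hPieces : Pieces P δ := by
    refine ⟨fun i => (hPn i).integrable, fun i => (hPn i).memLp, fun i => ?_, fun i => ?_, ?_⟩
    · cases i with
      | zero =>
        have h1 : 0 ≤ ∫ η, ‖cut G (φ 0) η‖ ^ 2 := integral_nonneg fun η => by positivity
        have h2 := Real.sq_sqrt h1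
        have h3 := Real.sqrt_nonneg (∫ η, ‖cut G (φ 0) η‖ ^ 2)
        change ∫ η, ‖cut G (φ 0) η‖ ^ 2 ≤ (√(∫ η, ‖cut G (φ 0) η‖ ^ 2) + 1) ^ 2
        nlinarith
      | succ j => exact integral_sq_le_of_En hw1 (hDn j) (hDE2 j)
    · cases i with
      | zero =>
        change 0 < √(∫ η, ‖cut G (φ 0) η‖ ^ 2) + 1
        positivity
      | succ j =>
        rw [hδs]
        positivity
    · rw [← summable_nat_add_iff 1]
      exact summable_geo
  obtain ⟨f, hf1, hf2⟩ := exists_f hPieces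
  have hGf : ∀ᵐ η, (𝓕 f : Lp ℂ 2 (volume : Measure (E n))) η = G η := by
    filter_upwards [hf1] with η hη'
    have h1 := (tendsto_add_atTop_iff_nat 1).2 hη'.tendsto_sum_nat
    simp_rw [hPsum] at h1
    refine tendsto_nhds_unique h1 (tendsto_const_nhds.congr' ?_)
    obtain ⟨m₀, hm₀⟩ := exists_nat_ge (max ‖η‖ ‖G η‖)
    filter_upwards [eventually_ge_atTop m₀] with m hm
    have h3 : (m₀ : ℝ) ≤ φ m := by exact_mod_cast hm.trans (hφ.id_le m)
    have h2 : η ∈ {η | ‖η‖ ≤ φ m ∧ ‖G η‖ ≤ φ m} :=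
      ⟨((le_max_left _ _).trans hm₀).trans h3, ((le_max_right _ _).trans hm₀).trans h3⟩
    simp only [cut]
    rw [indicator_of_mem h2]
  have hfF : f = F := by
    have h1 : (𝓕 f : Lp ℂ 2 (volume : Measure (E n))) = 𝓕 F := Lp.ext hGf
    exact (Lp.fourierTransformₗᵢ (E n) ℂ).injective h1
  subst hfF
  have hE1 : ∑' j : ℕ, volume (mset (D j) (T ∩ Ioo (-((j + 1 : ℕ) : ℝ)) ((j + 1 : ℕ) : ℝ))
      ((2 : ℝ)⁻¹ ^ j) ∩ Metric.ball 0 ((j + 1 : ℕ) : ℝ)) ≠ ⊤ :=
    ne_top_of_le_ne_top H791.tsum_th (ENNReal.tsum_le_tsum fun j => hη j (D j) (hDn j) (hDE1 j))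
  refine ⟨P, δ, hPieces, hPn, hf1, hf2, ?_⟩
  filter_upwards [ae_eventually_notMem hE1] with x hx1
  obtain ⟨J₁, hJ₁⟩ := eventually_atTop.1 hx1
  obtain ⟨J₂, hJ₂⟩ := exists_nat_gt ‖x‖
  set J : ℕ := max J₁ J₂ with hJ
  have hb1 : ∀ j, J ≤ j → ∀ σ ∈ T, |σ| < j + 1 → ‖evo (D j) x σ 0‖ ≤ (2 : ℝ)⁻¹ ^ j := by
    intro j hj σ hσT hσ
    by_contra hcon
    refine (hJ₁ j ((le_max_left _ _).trans hj)) ⟨⟨σ, ⟨hσT, ?_⟩, not_le.1 hcon⟩, ?_⟩
    · have h1 := abs_lt.1 hσ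
      push_cast
      exact ⟨h1.1, h1.2⟩
    · rw [mem_ball_zero_iff]
      have h2 : J₂ ≤ j := (le_max_right _ _).trans hj
      have h3 : (J₂ : ℝ) ≤ j := by exact_mod_cast h2
      push_cast
      linarith
  have hb2 : ∀ j, J ≤ j → ∀ σ ∈ closure T, |σ| < j + 1 → ‖evo (D j) x σ 0‖ ≤ (2 : ℝ)⁻¹ ^ j := by
    intro j hj σ hσT hσ
    have hc : Continuous fun s : ℝ => ‖evo (D j) x s 0‖ :=
      (continuous_evo_s (hDn j).integrable x).norm
    have hcl : IsClosed {s : ℝ | ‖evo (D j) x s 0‖ ≤ (2 : ℝ)⁻¹ ^ j} :=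
      isClosed_le hc continuous_const
    have hop : IsOpen {s : ℝ | |s| < j + 1} := isOpen_lt continuous_abs continuous_const
    have h1 : σ ∈ closure (T ∩ {s : ℝ | |s| < j + 1}) := by
      rw [inter_comm]
      exact hop.inter_closure ⟨hσ, hσT⟩
    have h2 : closure (T ∩ {s : ℝ | |s| < j + 1}) ⊆ {s : ℝ | ‖evo (D j) x s 0‖ ≤ (2 : ℝ)⁻¹ ^ j} :=
      closure_minimal (fun s hs => hb1 j hj s hs.1 hs.2) hcl
    exact h2 h1
  set B : ℕ → ℕ → ℝ := fun R i => if J + R + 1 ≤ i then δ i else ∫ η, ‖P i η‖ with hB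
  have hBs : ∀ R, Summable (B R) := by
    intro R
    have hev : ∀ᶠ i in atTop, δ i = B R i := by
      filter_upwards [eventually_ge_atTop (J + R + 1)] with i hi
      simp only [hB]
      rw [if_pos hi]
    exact (summable_congr_atTop hev).1 hPieces.summable
  have hle : ∀ R : ℕ, ∀ i, ∀ s ∈ closure T, |s| ≤ R → ‖evo (P i) x s 0‖ ≤ B R i := by
    intro R i s hsT hs
    simp only [hB]
    split_ifs with hi
    · obtain ⟨j, rfl⟩ : ∃ j, i = j + 1 := ⟨i - 1, by omega⟩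
      have hj : J ≤ j := by omega
      have hRj : (R : ℝ) ≤ j := by exact_mod_cast (by omega : R ≤ j)
      rw [hPs, hδs]
      exact hb2 j hj s hsT (by linarith)
    · exact norm_evo_le (hPn i).integrable x s le_rfl
  intro s hs
  obtain ⟨R, hR⟩ := exists_nat_gt |s|
  have h1 : ContinuousOn (fun s => ∑' i, evo (P i) x s 0) (closure T ∩ Ioo (-(R : ℝ)) R) := by
    refine continuousOn_tsum (fun i => (continuous_evo_s (hPn i).integrable x).continuousOn)
      (hBs R) fun i s hs => hle R i s hs.1 ?_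
    exact abs_le.2 ⟨hs.2.1.le, hs.2.2.le⟩
  have h2 : Ioo (-(R : ℝ)) R ∈ 𝓝 s := Ioo_mem_nhds (abs_lt.1 hR).1 (abs_lt.1 hR).2
  have h3 := h1 s ⟨hs, (abs_lt.1 hR).1, (abs_lt.1 hR).2⟩
  exact (continuousWithinAt_inter h2).1 h3

lemma pieces_sft {P : ℕ → E n → ℂ} {δ : ℕ → ℝ} {w : E n → ℝ≥0∞} (h : Pieces P δ)
    (hP : ∀ i, Nice w (P i)) (s : ℝ) : Pieces (fun i => sft s (P i)) δ := by
  refine ⟨fun i => ((hP i).sft s).integrable, fun i => ((hP i).sft s).memLp, fun i => ?_, h.pos,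
    h.summable⟩
  simp_rw [norm_sft]
  exact h.sq i

/-- The maximal estimate along `T` gives values along the closure of `T`, continuous in time. -/
theorem conv_of_MPE {T : Set ℝ} (hT : T.Countable) (_h0 : (0 : ℝ) ∈ T)
    (w : (Fin n → ℝ) → ℝ≥0∞) (hw : Measurable w) (hw1 : ∀ ξ, 1 ≤ w ξ)
    (h : MPE (Vale.Agent.P076.H791.wt w) ((fun t => 2 * Real.pi * t) '' T))
    {f g : (Fin n → ℝ) → ℂ} (hfg : IsFourierPair f g) (hE : ∫⁻ ξ, w ξ * ‖g ξ‖ₑ ^ 2 < ⊤)
    (u : ℝ → (Fin n → ℝ) → ℂ)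
    (hu : ∀ t ∈ T, IsFourierPair (u t) fun ξ => cexp (-(I * t * nrm ξ ^ 2)) * g ξ) :
    ∀ᵐ x, ∃ v : ℝ → ℂ, ContinuousOn v (closure T) ∧ v 0 = f x ∧ ∀ t ∈ T, v t = u t x := by
  have hwt := H791.measurable_wt hw
  have hwt1 : ∀ η, 1 ≤ H791.wt w η := fun η => hw1 _
  have hpi : (0 : ℝ) < 2 * Real.pi := by positivity
  obtain ⟨F, hf, hg⟩ := exists_lp hfg
  have hE2 : En (H791.wt w) (fun η => (𝓕 F : Lp ℂ 2 (volume : Measure (E n))) η) < ⊤ := by
    have h1 : ∫⁻ ξ, w ξ * ‖g ξ‖ₑ ^ 2 = ∫⁻ ξ, w ξ * ‖freq F ξ‖ₑ ^ 2 := by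
      refine lintegral_congr_ae ?_
      filter_upwards [hg] with ξ hξ
      rw [hξ]
    rw [h1, energy_freq] at hE
    by_contra hcon
    rw [not_lt, top_le_iff] at hcon
    rw [hcon, ENNReal.mul_top ofReal_pos_scale] at hE
    exact lt_irrefl _ hE
  obtain ⟨P, δ, hPi, hPn, hP1, hP2, hP3⟩ := posT_data hwt hwt1 h F hE2
  have key : ∀ t ∈ T, ∀ᵐ x : Fin n → ℝ,
      HasSum (fun k => evo (P k) (toE x) (2 * Real.pi * t) 0) (u t x) := by
    intro t ht
    obtain ⟨F', hF1', hF2'⟩ := exists_f (pieces_sft hPi hPn (2 * Real.pi * t))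
    have h1 : ∀ᵐ η, (𝓕 F' : Lp ℂ 2 (volume : Measure (E n))) η =
        sft (2 * Real.pi * t) (fun η => (𝓕 F : Lp ℂ 2 (volume : Measure (E n))) η) η := by
      filter_upwards [hP1, hF1'] with η h1 h2
      exact h2.unique (h1.mul_left _)
    have h2 := freq_ae h1
    have h3 : u t =ᵐ[volume] phys F' := by
      refine uniq (hu t ht) (isFourierPair F') ?_
      filter_upwards [h2, hg] with ξ hξ hgξ
      rw [hξ, hgξ, phase_eq]
    filter_upwards [h3, ae_toE hF2'] with x hx1 hx2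
    rw [hx1]
    simp_rw [evo_sft, zero_add] at hx2
    exact hx2
  have key2 : ∀ᵐ x : Fin n → ℝ, ∀ t ∈ T,
      HasSum (fun k => evo (P k) (toE x) (2 * Real.pi * t) 0) (u t x) := (ae_ball_iff hT).2 key
  filter_upwards [key2, ae_toE hP2, ae_toE hP3, hf] with x hx1 hx2 hx3 hx4
  refine ⟨fun t => ∑' k, evo (P k) (toE x) (2 * Real.pi * t) 0, ?_, ?_, fun t ht =>
    (hx1 t ht).tsum_eq⟩
  · have hc : Continuous fun t : ℝ => 2 * Real.pi * t := continuous_const.mul continuous_id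
    refine hx3.comp hc.continuousOn fun t ht => ?_
    exact image_closure_subset_closure_image hc ⟨t, ht, rfl⟩
  · simp only [mul_zero]
    rw [hx2.tsum_eq, hx4]
    rfl

end Vale.Agent.P076.R2.H305
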