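import Vale.Agent.P076.H791.Law

/-!
# P076, thin sets of times: the deterministic end
-/

open MeasureTheory Complex FourierTransform Filter Topology Set
open scoped ENNReal NNReal

namespace Vale.Agent.P076.R2.H64

open Vale.Agent.P076 Vale.Agent.P076.H791

variable {n : ℕ}

theorem det_end {P : ℕ → E n → ℂ} {δ : ℕ → ℝ} (hP : Pieces P δ) {g : E n → ℂ}
    (hg : ∀ᵐ η, HasSum (fun i => P i η) (g η)) (x : E n) {Z : Set ℝ} {e : ℕ → ℝ}
    (he : Summable e) {k0 : ℕ}
    (hb : ∀ k ≥ k0, ∀ s ∈ Z, ∀ a : ℝ, 0 ≤ a → ‖evo (P k) x s a‖ ≤ e k) :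
    ContinuousOn (fun s => ∑' k, evo (P k) x s 0) Z ∧
      ∀ s ∈ Z, Tendsto (fun a => evo g x s a) (𝓝[>] 0) (𝓝 (∑' k, evo (P k) x s 0)) := by
  set B : ℕ → ℝ := fun k => if k0 ≤ k then e k else ∫ η, ‖P k η‖ with hB
  have hBs : Summable B := by
    have hev : ∀ᶠ k in atTop, e k = B k := by
      filter_upwards [eventually_ge_atTop k0] with k hk
      simp only [hB]
      rw [if_pos hk]
    exact (summable_congr_atTop hev).1 he
  have hle : ∀ k, ∀ s ∈ Z, ∀ a : ℝ, 0 ≤ a → ‖evo (P k) x s a‖ ≤ B k := by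
    intro k s hs a ha
    simp only [hB]
    split_ifs with hk
    · exact hb k hk s hs a ha
    · exact norm_evo_le (hP.int k) x s ha
  refine ⟨?_, fun s hs => ?_⟩
  · exact continuousOn_tsum (fun k => (continuous_evo_s (hP.int k) x).continuousOn) hBs
      fun k s hs => hle k s hs 0 le_rfl
  · have h1 : Tendsto (fun a => ∑' k, evo (P k) x s a) (𝓝[>] 0)
        (𝓝 (∑' k, evo (P k) x s 0)) := by
      refine tendsto_tsum_of_dominated_convergence hBs
        (fun k => tendsto_evo (hP.int k) x s) ?_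
      filter_upwards [self_mem_nhdsWithin] with a ha k
      exact hle k s hs a (le_of_lt ha)
    refine h1.congr' ?_
    filter_upwards [self_mem_nhdsWithin] with a ha
    exact (evo_hasSum hP hg x s ha).tsum_eq

end Vale.Agent.P076.R2.H64
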