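import Vale.Agent.P076.R2.H45.Kern

/-!
# The kernel of an anisotropic Gaussian
-/

open MeasureTheory Complex FourierTransform Filter Topology Set
open scoped ENNReal NNReal

namespace Vale.Agent.P076.R2.H305

open Vale.Agent.P076 Vale.Agent.P076.R2.H45

variable {n : ℕ}

/-- one factor -/
lemma norm_factor {a : ℝ} (ha : 0 < a) (c z t : ℝ) :
    ‖∫ u : ℝ, cexp (-(Real.pi * (a + 2 * t * I)) * u ^ 2 + 2 * Real.pi * (a * c + z * I) * u +
        (-(Real.pi * a * c ^ 2)))‖ =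
      (a ^ 2 + 4 * t ^ 2) ^ (-(1 / 4) : ℝ) *
        Real.exp (-(Real.pi * (a * (z - 2 * t * c) ^ 2 / (a ^ 2 + 4 * t ^ 2)))) := by
  have hb : (-(Real.pi * (a + 2 * t * I)) : ℂ).re < 0 := by
    simp [Real.pi_pos, ha]
  have hX : 0 < a ^ 2 + 4 * t ^ 2 := by positivity
  have hne : ((a : ℂ) + 2 * t * I) ≠ 0 := by
    intro h
    have := congrArg Complex.re h
    simp at this
    exact ha.ne' this
  have hpi : (Real.pi : ℂ) ≠ 0 := by exact_mod_cast Real.pi_ne_zero
  have hns : Complex.normSq ((a : ℂ) + 2 * t * I) = a ^ 2 + 4 * t ^ 2 := by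
    rw [Complex.normSq_apply]
    simp
    ring
  have hnorm : ‖(a : ℂ) + 2 * t * I‖ = Real.sqrt (a ^ 2 + 4 * t ^ 2) := by
    rw [← hns, Complex.normSq_eq_norm_sq, Real.sqrt_sq (norm_nonneg _)]
  rw [integral_cexp_quadratic hb, norm_mul, neg_neg, Complex.norm_exp]
  have h1 : (Real.pi : ℂ) / (Real.pi * (a + 2 * t * I)) = 1 / (a + 2 * t * I) := by
    field_simp
  rw [h1]
  congr 1
  · rw [Complex.norm_cpow_of_ne_zero (one_div_ne_zero hne)]
    have e1 : (1 / 2 : ℂ).im = 0 := by simp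
    have e2 : (1 / 2 : ℂ).re = 1 / 2 := by simp
    rw [e1, e2, mul_zero, Real.exp_zero, div_one, norm_div, norm_one, hnorm, Real.sqrt_eq_rpow,
      one_div, ← Real.rpow_neg hX.le, ← Real.rpow_mul hX.le]
    norm_num
  · congr 1
    have e3 : (-(Real.pi * a * c ^ 2) : ℂ) -
        (2 * Real.pi * (a * c + z * I)) ^ 2 / (4 * -(Real.pi * (a + 2 * t * I))) =
        ((-(Real.pi * a * c ^ 2) : ℝ) : ℂ) +
          (Real.pi : ℂ) * ((a * c + z * I) ^ 2 / (a + 2 * t * I)) := by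
      push_cast
      field_simp
      ring
    have e4 : ((a * c + z * I : ℂ) ^ 2 / (a + 2 * t * I)).re =
        (a * (a ^ 2 * c ^ 2 - z ^ 2) + 4 * t * a * c * z) / (a ^ 2 + 4 * t ^ 2) := by
      have e5 : (a * c + z * I : ℂ) ^ 2 =
          ((a ^ 2 * c ^ 2 - z ^ 2 : ℝ) : ℂ) + ((2 * a * c * z : ℝ) : ℂ) * I := by
        push_cast
        have := I_sq
        linear_combination (z : ℂ) ^ 2 * this
      have e6 : ∀ X Y : ℝ, (((X : ℂ) + (Y : ℂ) * I) / ((a : ℂ) + 2 * t * I)).re =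
          (X * a + Y * (2 * t)) / (a ^ 2 + 4 * t ^ 2) := by
        intro X Y
        rw [Complex.div_re, hns]
        simp
        ring
      rw [e5, e6]
      congr 1
      ring
    rw [e3, Complex.add_re, Complex.ofReal_re, Complex.re_ofReal_mul, e4]
    field_simp
    ring

lemma integrand_eq (a c : Fin n → ℝ) (z : E n) (t : ℝ) (v : Fin n → ℝ) :
    ((Real.exp (-(Real.pi * ∑ i, a i * ((WithLp.toLp 2 v : E n) i - c i) ^ 2)) : ℝ) : ℂ) *
        ph z t 0 (WithLp.toLp 2 v) =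
      ∏ i, cexp (-(Real.pi * (a i + 2 * t * I)) * (v i) ^ 2 +
        2 * Real.pi * (a i * c i + z i * I) * v i + (-(Real.pi * a i * c i ^ 2))) := by
  rw [ph, ← Complex.exp_sum, Complex.ofReal_exp, ← Complex.exp_add]
  congr 1
  have h1 : (‖(WithLp.toLp 2 v : E n)‖ ^ 2 : ℝ) = ∑ i, v i ^ 2 := by
    rw [EuclideanSpace.norm_sq_eq]
    simp
  have h2 : (inner ℝ z (WithLp.toLp 2 v : E n) : ℝ) = ∑ i, z i * v i := by
    rw [PiLp.inner_apply]
    simp [mul_comm]
  rw [h1, h2]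
  push_cast
  simp only [zero_mul, sub_zero]
  rw [Finset.mul_sum, ← Finset.sum_neg_distrib, Finset.mul_sum (a := (t : ℂ)),
    ← Finset.sum_sub_distrib, Finset.mul_sum, ← Finset.sum_add_distrib]
  refine Finset.sum_congr rfl fun i _ => ?_
  ring

theorem norm_Ker_gauss (a c : Fin n → ℝ) (ha : ∀ i, 0 < a i) (z : E n) (t : ℝ) :
    ‖Ker (fun y : E n => Real.exp (-(Real.pi * ∑ i, a i * (y i - c i) ^ 2))) z t‖ =
      ∏ i, ((a i ^ 2 + 4 * t ^ 2) ^ (-(1 / 4) : ℝ) *
        Real.exp (-(Real.pi * (a i * (z i - 2 * t * c i) ^ 2 / (a i ^ 2 + 4 * t ^ 2))))) := by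
  rw [Ker, ← (PiLp.volume_preserving_toLp (Fin n)).integral_comp
    (MeasurableEquiv.toLp 2 _).measurableEmbedding]
  have h : ∀ v : Fin n → ℝ, _ := fun v => integrand_eq a c z t v
  simp only [h]
  rw [integral_fintype_prod_volume_eq_prod (f := fun i (u : ℝ) =>
    cexp (-(Real.pi * (a i + 2 * t * I)) * (u : ℂ) ^ 2 +
        2 * Real.pi * (a i * c i + z i * I) * u + (-(Real.pi * a i * c i ^ 2))))]
  rw [norm_prod]
  refine Finset.prod_congr rfl fun i _ => ?_
  exact norm_factor (ha i) (c i) (z i) t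

theorem integrable_gauss (a c : Fin n → ℝ) (ha : ∀ i, 0 < a i) :
    Integrable (fun y : E n => Real.exp (-(Real.pi * ∑ i, a i * (y i - c i) ^ 2))) := by
  rw [← (PiLp.volume_preserving_toLp (Fin n)).integrable_comp_emb
    (MeasurableEquiv.toLp 2 _).measurableEmbedding]
  have h : ((fun y : E n => Real.exp (-(Real.pi * ∑ i, a i * (y i - c i) ^ 2))) ∘
      (WithLp.toLp 2 : (Fin n → ℝ) → E n)) =
      fun v : Fin n → ℝ => ∏ i, Real.exp (-(Real.pi * a i) * (v i - c i) ^ 2) := by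
    ext v
    simp only [Function.comp]
    rw [← Real.exp_sum, Finset.mul_sum, ← Finset.sum_neg_distrib]
    congr 1
    refine Finset.sum_congr rfl fun i _ => ?_
    ring
  rw [h]
  refine Integrable.fintype_prod (f := fun i (u : ℝ) => Real.exp (-(Real.pi * a i) * (u - c i) ^ 2))
    fun i => ?_
  exact (integrable_exp_neg_mul_sq (b := Real.pi * a i) (mul_pos Real.pi_pos (ha i))).comp_sub_right
    (c i)

end Vale.Agent.P076.R2.H305
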