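import Vale.Agent.P076.R2.H305.MPE

/-!
# The maximal estimate for the Gaussian regularisation at a fixed time
-/

open MeasureTheory Complex FourierTransform Filter Topology Set
open scoped ENNReal NNReal

namespace Vale.Agent.P076.R2.H305

open Vale.Agent.P076 Vale.Agent.P076.H791

variable {n : ℕ}

/-- The maximal estimate, in measure, over the Gaussian regularisations at time `0`. -/
def MPA (w : E n → ℝ≥0∞) : Prop :=
  ∀ (r : ℕ) (ε : ℝ), 0 < ε → ∃ δ : ℝ≥0∞, 0 < δ ∧ ∀ G : E n → ℂ, Nice w G → En w G ≤ δ →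
    volume ({x | ∃ a ∈ Set.Icc (0 : ℝ) 1, ε < ‖evo G x 0 a‖} ∩ Metric.ball 0 r) ≤
      ENNReal.ofReal ε

/-- for every time the regularised values converge almost everywhere -/
theorem posA_data {w : E n → ℝ≥0∞} (hw : Measurable w) (hw1 : ∀ η, 1 ≤ w η)
    (h : MPA w) (F : Lp ℂ 2 (volume : Measure (E n)))
    (hE : En w (fun η => (𝓕 F : Lp ℂ 2 (volume : Measure (E n))) η) < ⊤) (s : ℝ) :
    ∀ᵐ x, ∃ ℓ : ℂ, Tendsto
      (fun a => evo (fun η => (𝓕 F : Lp ℂ 2 (volume : Measure (E n))) η) x s a)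
      (𝓝[>] 0) (𝓝 ℓ) := by
  set G : E n → ℂ := fun η => (𝓕 F : Lp ℂ 2 (volume : Measure (E n))) η with hG
  have hGm : Measurable G := (Lp.stronglyMeasurable _).measurable
  choose ηf hη0 hη using fun j : ℕ => h (j + 1) ((2 : ℝ)⁻¹ ^ j) (by positivity)
  obtain ⟨φ, hφ, hp⟩ := extraction_forall_of_eventually
    (P := fun j m => En w (G - cut G m) ≤ min (ηf j) (H791.th j ^ 2 * H791.th j)) (fun j => by
      have h0 := H791.th_pos j
      exact ENNReal.tendsto_nhds_zero.1 (tendsto_cut hw hGm hE) _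
        (lt_min (hη0 j) (by positivity)))
  set D : ℕ → E n → ℂ := fun j => cut G (φ (j + 1)) - cut G (φ j) with hD
  have hDn : ∀ j, Nice w (D j) := fun j => (nice_cut hGm hE _).sub hw (nice_cut hGm hE _)
  have hDE : ∀ j, En w (D j) ≤ min (ηf j) (H791.th j ^ 2 * H791.th j) := fun j =>
    (En_mono (norm_cut_sub_le (hφ (Nat.lt_succ_self j)).le)).trans (hp j)
  have hDE1 : ∀ j, En w (D j) ≤ ηf j := fun j => (hDE j).trans (min_le_left _ _)
  have hDE2 : ∀ j, En w (D j) ≤ H791.th j ^ 2 * H791.th j := fun j => (hDE j).trans (min_le_right _ _)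
  set P : ℕ → E n → ℂ := fun i => Nat.rec (cut G (φ 0)) (fun j _ => D j) i with hP
  have hP0 : P 0 = cut G (φ 0) := rfl
  have hPs : ∀ j, P (j + 1) = D j := fun j => rfl
  have hPn : ∀ i, Nice w (P i) := fun i => by
    cases i with
    | zero => exact nice_cut hGm hE _
    | succ j => exact hDn j
  have hPsum : ∀ m η, ∑ i ∈ Finset.range (m + 1), P i η = cut G (φ m) η := by
    intro m η
    induction m with
    | zero => simp [hP0]
    | succ m ih =>
      rw [Finset.sum_range_succ, ih, hPs]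
      simp only [hD, Pi.sub_apply]
      ring
  set δ : ℕ → ℝ := fun i => Nat.rec (√(∫ η, ‖cut G (φ 0) η‖ ^ 2) + 1) (fun j _ => (2 : ℝ)⁻¹ ^ j) i
    with hδ
  have hδs : ∀ j, δ (j + 1) = (2 : ℝ)⁻¹ ^ j := fun j => rfl
  have hPieces : Pieces P δ := by
    refine ⟨fun i => (hPn i).integrable, fun i => (hPn i).memLp, fun i => ?_, fun i => ?_, ?_⟩
    · cases i with
      | zero =>
        have h1 : 0 ≤ ∫ η, ‖cut G (φ 0) η‖ ^ 2 := integral_nonneg fun η => by positivity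
        have h2 := Real.sq_sqrt h1
        have h3 := Real.sqrt_nonneg (∫ η, ‖cut G (φ 0) η‖ ^ 2)
        change ∫ η, ‖cut G (φ 0) η‖ ^ 2 ≤ (√(∫ η, ‖cut G (φ 0) η‖ ^ 2) + 1) ^ 2
        nlinarith
      | succ j => exact integral_sq_le_of_En hw1 (hDn j) (hDE2 j)
    · cases i with
      | zero =>
        change 0 < √(∫ η, ‖cut G (φ 0) η‖ ^ 2) + 1
        positivity
      | succ j =>
        rw [hδs]
        positivity
    · rw [← summable_nat_add_iff 1]
      exact summable_geo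
  obtain ⟨f, hf1, hf2⟩ := exists_f hPieces
  have hGf : ∀ᵐ η, (𝓕 f : Lp ℂ 2 (volume : Measure (E n))) η = G η := by
    filter_upwards [hf1] with η hη'
    have h1 := (tendsto_add_atTop_iff_nat 1).2 hη'.tendsto_sum_nat
    simp_rw [hPsum] at h1
    refine tendsto_nhds_unique h1 (tendsto_const_nhds.congr' ?_)
    obtain ⟨m₀, hm₀⟩ := exists_nat_ge (max ‖η‖ ‖G η‖)
    filter_upwards [eventually_ge_atTop m₀] with m hm
    have h3 : (m₀ : ℝ) ≤ φ m := by exact_mod_cast hm.trans (hφ.id_le m)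
    have h2 : η ∈ {η | ‖η‖ ≤ φ m ∧ ‖G η‖ ≤ φ m} :=
      ⟨((le_max_left _ _).trans hm₀).trans h3, ((le_max_right _ _).trans hm₀).trans h3⟩
    simp only [cut]
    rw [indicator_of_mem h2]
  have hfF : f = F := by
    have h1 : (𝓕 f : Lp ℂ 2 (volume : Measure (E n))) = 𝓕 F := Lp.ext hGf
    exact (Lp.fourierTransformₗᵢ (E n) ℂ).injective h1
  subst hfF
  have hE1 : ∑' j : ℕ, volume ({x | ∃ a ∈ Set.Icc (0 : ℝ) 1,
      (2 : ℝ)⁻¹ ^ j < ‖evo (sft s (D j)) x 0 a‖} ∩ Metric.ball 0 ((j + 1 : ℕ) : ℝ)) ≠ ⊤ :=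
    ne_top_of_le_ne_top H791.tsum_th (ENNReal.tsum_le_tsum fun j =>
      hη j (sft s (D j)) ((hDn j).sft s) ((En_sft s).le.trans (hDE1 j)))
  filter_upwards [ae_eventually_notMem hE1] with x hx1
  obtain ⟨J₁, hJ₁⟩ := eventually_atTop.1 hx1
  obtain ⟨J₂, hJ₂⟩ := exists_nat_gt ‖x‖
  set J : ℕ := max J₁ J₂ with hJ
  have hb1 : ∀ j, J ≤ j → ∀ a ∈ Set.Icc (0 : ℝ) 1, ‖evo (D j) x s a‖ ≤ (2 : ℝ)⁻¹ ^ j := by
    intro j hj a ha
    by_contra hcon
    refine (hJ₁ j ((le_max_left _ _).trans hj)) ⟨⟨a, ha, ?_⟩, ?_⟩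
    · rw [evo_sft, zero_add]
      exact not_le.1 hcon
    · rw [mem_ball_zero_iff]
      have h2 : J₂ ≤ j := (le_max_right _ _).trans hj
      have h3 : (J₂ : ℝ) ≤ j := by exact_mod_cast h2
      push_cast
      linarith
  set B : ℕ → ℝ := fun i => if J + 1 ≤ i then δ i else ∫ η, ‖P i η‖ with hB
  have hBs : Summable B := by
    have hev : ∀ᶠ i in atTop, δ i = B i := by
      filter_upwards [eventually_ge_atTop (J + 1)] with i hi
      simp only [hB]
      rw [if_pos hi]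
    exact (summable_congr_atTop hev).1 hPieces.summable
  have hle : ∀ i, ∀ a ∈ Set.Icc (0 : ℝ) 1, ‖evo (P i) x s a‖ ≤ B i := by
    intro i a ha
    simp only [hB]
    split_ifs with hi
    · obtain ⟨j, rfl⟩ : ∃ j, i = j + 1 := ⟨i - 1, by omega⟩
      rw [hPs, hδs]
      exact hb1 j (by omega) a ha
    · exact norm_evo_le (hPn i).integrable x s ha.1
  refine ⟨∑' i, evo (P i) x s 0, ?_⟩
  have h1 : Tendsto (fun a => ∑' i, evo (P i) x s a) (𝓝[>] 0) (𝓝 (∑' i, evo (P i) x s 0)) := by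
    refine tendsto_tsum_of_dominated_convergence hBs
      (fun i => tendsto_evo (hPn i).integrable x s) ?_
    have h2 : Ioo (0 : ℝ) 1 ∈ 𝓝[>] (0 : ℝ) := Ioo_mem_nhdsGT zero_lt_one
    filter_upwards [h2] with a ha i
    exact hle i a ⟨ha.1.le, ha.2.le⟩
  refine h1.congr' ?_
  filter_upwards [self_mem_nhdsWithin] with a ha
  exact (evo_hasSum hPieces hf1 x s ha).tsum_eq

/-- The maximal estimate for the Gaussian regularisations gives the values of the question. -/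
theorem gauss_of_MPA (w : (Fin n → ℝ) → ℝ≥0∞) (hw : Measurable w) (hw1 : ∀ ξ, 1 ≤ w ξ)
    (h : MPA (Vale.Agent.P076.H791.wt w)) {f g : (Fin n → ℝ) → ℂ} (hfg : IsFourierPair f g)
    (hE : ∫⁻ ξ, w ξ * ‖g ξ‖ₑ ^ 2 < ⊤) (t : ℝ) (u : (Fin n → ℝ) → ℂ)
    (hu : IsFourierPair u fun ξ => cexp (-(I * t * nrm ξ ^ 2)) * g ξ) :
    ∀ᵐ x, Tendsto (fun a => evolve g t a x) (𝓝[>] 0) (𝓝 (u x)) := by
  have hwt := H791.measurable_wt hw
  have hwt1 : ∀ η, 1 ≤ H791.wt w η := fun η => hw1 _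
  obtain ⟨F, hf, hg⟩ := exists_lp hfg
  have hE2 : En (H791.wt w) (fun η => (𝓕 F : Lp ℂ 2 (volume : Measure (E n))) η) < ⊤ := by
    have h1 : ∫⁻ ξ, w ξ * ‖g ξ‖ₑ ^ 2 = ∫⁻ ξ, w ξ * ‖freq F ξ‖ₑ ^ 2 := by
      refine lintegral_congr_ae ?_
      filter_upwards [hg] with ξ hξ
      rw [hξ]
    rw [h1, energy_freq] at hE
    by_contra hcon
    rw [not_lt, top_le_iff] at hcon
    rw [hcon, ENNReal.mul_top ofReal_pos_scale] at hE
    exact lt_irrefl _ hE
  filter_upwards [ae_toE (posA_data hwt hwt1 h F hE2 (2 * Real.pi * t)), value_eq hfg t hu]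
    with x hx hv
  obtain ⟨ℓ, hℓ⟩ := hx
  have h2 : Tendsto (fun b : ℝ => 4 * Real.pi ^ 2 * b) (𝓝[>] 0) (𝓝[>] 0) := by
    refine tendsto_nhdsWithin_iff.2 ⟨?_, ?_⟩
    · have : Tendsto (fun b : ℝ => 4 * Real.pi ^ 2 * b) (𝓝 0) (𝓝 (4 * Real.pi ^ 2 * 0)) :=
        (continuous_const.mul continuous_id).tendsto 0
      rw [mul_zero] at this
      exact this.mono_left nhdsWithin_le_nhds
    · filter_upwards [self_mem_nhdsWithin] with b hb
      have hb' : (0:ℝ) < b := hb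
      exact Set.mem_Ioi.2 (by positivity)
  have h3 : Tendsto (fun a => evolve g t a x) (𝓝[>] 0) (𝓝 ℓ) := by
    refine (hℓ.comp h2).congr fun a => ?_
    rw [evolve_congr hg, evolve_freq, schrReg_eq_evo]
    rfl
  rw [hv ℓ h3]
  exact h3

end Vale.Agent.P076.R2.H305
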