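import Vale.Agent.P076.H791.Law

/-!
# The maximal estimate along a set of times
-/

open MeasureTheory Complex FourierTransform Filter Topology Set
open scoped ENNReal NNReal

namespace Vale.Agent.P076.R2.H305

open Vale.Agent.P076 Vale.Agent.P076.H791

variable {n : ℕ}

/-- The maximal estimate, in measure, along the times of `T`. -/
def MPE (w : E n → ℝ≥0∞) (T : Set ℝ) : Prop :=
  ∀ (r : ℕ) (ε : ℝ), 0 < ε → ∃ δ : ℝ≥0∞, 0 < δ ∧ ∀ G : E n → ℂ, Nice w G → En w G ≤ δ →
    volume (mset G (T ∩ Set.Ioo (-(r : ℝ)) r) ε ∩ Metric.ball 0 r) ≤ ENNReal.ofReal ε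

end Vale.Agent.P076.R2.H305
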